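import Vale.Agent.P195.CC2

/-! A counterexample to the Auslander-Reiten conjecture. -/

namespace Vale.Agent.Results.P195.ARCounterexample

theorem result : ∃ (k : Type) (_ : Field k) (R : Type) (_ : Ring R) (_ : Algebra k R)
    (_ : FiniteDimensional k R) (M : Type) (_ : AddCommGroup M) (_ : Module R M)
    (_ : Module.Finite R M),
    (∀ i : ℕ, 1 ≤ i →
      Subsingleton (CategoryTheory.Abelian.Ext.{0} (ModuleCat.of R M) (ModuleCat.of R M) i) ∧
      Subsingleton (CategoryTheory.Abelian.Ext.{0} (ModuleCat.of R M) (ModuleCat.of R R) i)) ∧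
    ¬ Module.Projective R M := by
  obtain ⟨R, _, _, _, M, _, _, _, _, _, h1, h2, h3⟩ := Vale.Agent.P195.arCounter
  refine ⟨RatFunc (ZMod 2), inferInstance, R, inferInstance, inferInstance, inferInstance, M,
    inferInstance, inferInstance, Module.Finite.of_restrictScalars_finite (RatFunc (ZMod 2)) R M,
    fun i hi => ?_, h3⟩
  obtain ⟨n, rfl⟩ : ∃ n, i = n + 1 := ⟨i - 1, by omega⟩
  exact ⟨(h1 n).subsingleton, (h2 n).subsingleton⟩

end Vale.Agent.Results.P195.ARCounterexample
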